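import Vale.Agent.P133.R2.H307.Spec2
import Mathlib.Analysis.CStarAlgebra.ContinuousFunctionalCalculus.Order
import Mathlib.Analysis.CStarAlgebra.ContinuousFunctionalCalculus.Isometric
import Mathlib.Analysis.SpecialFunctions.Pow.Real

/-!
P133 (helper69): the first step of row D: `d` is near an element `d₀` supported away from `0`.
-/

open scoped ComplexOrder

namespace Vale.Agent.P133.R2.H69

open Vale.Agent.P133.R2.H307

universe u

/-- the ramp function -/
noncomputable def rf (τ : ℝ) (s : ℝ) : ℝ := min (max (2 * s / τ - 1) 0) 1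

theorem rf_cont (τ : ℝ) : Continuous (rf τ) := by
  unfold rf
  exact ((((continuous_const.mul continuous_id).div_const τ).sub continuous_const).max
    continuous_const).min continuous_const

theorem rf_zero {τ : ℝ} : rf τ 0 = 0 := by simp [rf]

theorem rf_nonneg (τ s : ℝ) : 0 ≤ rf τ s := le_min (le_max_right _ _) zero_le_one

theorem rf_le_one (τ s : ℝ) : rf τ s ≤ 1 := min_le_right _ _

theorem rf_eq_zero {τ s : ℝ} (hτ : 0 < τ) (h : s ≤ τ / 2) : rf τ s = 0 := by
  have h1 : 2 * s / τ - 1 ≤ 0 := by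
    rw [sub_nonpos, div_le_one hτ]; linarith
  rw [rf, max_eq_right h1]; exact min_eq_left zero_le_one

theorem rf_eq_one {τ s : ℝ} (hτ : 0 < τ) (h : τ ≤ s) : rf τ s = 1 := by
  have h1 : 1 ≤ 2 * s / τ - 1 := by
    rw [le_sub_iff_add_le, le_div_iff₀ hτ]; linarith
  rw [rf, min_eq_right (h1.trans (le_max_left _ _))]

section

variable {D : Type u} [NonUnitalCStarAlgebra D] [PartialOrder D] [StarOrderedRing D]

omit [PartialOrder D] [StarOrderedRing D] in
theorem mulf {a : D} {f g : ℝ → ℝ} (hf : Continuous f) (hf0 : f 0 = 0) (hg : Continuous g)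
    (hg0 : g 0 = 0) : cfcₙ f a * cfcₙ g a = cfcₙ (fun s => f s * g s) a :=
  (cfcₙ_mul f g a hf.continuousOn hf0 hg.continuousOn hg0).symm

theorem mul_id {a : D} (ha : 0 ≤ a) {f : ℝ → ℝ} (hf : Continuous f) (hf0 : f 0 = 0) :
    a * cfcₙ f a = cfcₙ (fun s => s * f s) a := by
  have h1 : cfcₙ (fun s : ℝ => s) a = a := cfcₙ_id' ℝ a (IsSelfAdjoint.of_nonneg ha)
  have h2 := mulf (a := a) continuous_id' rfl hf hf0
  rwa [h1] at h2

theorem id_mul {a : D} (ha : 0 ≤ a) {f : ℝ → ℝ} (hf : Continuous f) (hf0 : f 0 = 0) :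
    cfcₙ f a * a = cfcₙ (fun s => s * f s) a := by
  have h1 : cfcₙ (fun s : ℝ => s) a = a := cfcₙ_id' ℝ a (IsSelfAdjoint.of_nonneg ha)
  have h2 := mulf (a := a) hf hf0 continuous_id' rfl
  rw [h1] at h2
  rw [h2]
  congr 1
  funext s
  exact mul_comm _ _

/-- The step: `d₀ ∈ herS a` near `d`, with a unit `e = a c = c a` for it and for the square root
`r` of the ramp. -/
theorem step {a : D} (ha : 0 ≤ a) {δ : ℝ} (hδ : 0 < δ) {d : D} (hd : d ∈ herS a) {ρ : ℝ}
    (hρ : 0 < ρ) :
    ∃ d0 e c : D, d0 ∈ herS a ∧ ‖d0 - d‖ ≤ ρ ∧ 0 ≤ e ∧ ‖e‖ ≤ 1 ∧ e * d0 = d0 ∧ d0 * e = d0 ∧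
      e = a * c ∧ e = c * a ∧ IsSelfAdjoint c ∧
      ∃ r : D, 0 ≤ r ∧ ‖r‖ ≤ 1 ∧ r * r = ramp δ a ∧ e * r = r ∧ r * e = r := by
  have hasa : IsSelfAdjoint a := IsSelfAdjoint.of_nonneg ha
  obtain ⟨hd1, hd2⟩ := Submodule.mem_inf.1 hd
  have hdsa : star d = d := hd2
  obtain ⟨_, ⟨y, rfl⟩, hy⟩ := Metric.mem_closure_iff.1 (show d ∈ closure _ from hd1) (ρ / 2)
    (by positivity)
  have hy' : ‖d - a * (y * a)‖ < ρ / 2 := by rwa [dist_eq_norm] at hy
  set y' : D := (1 / 2 : ℝ) • (y + star y) with hy'def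
  have hy's : star y' = y' := by
    rw [hy'def, star_smul, star_add, star_star, star_trivial, add_comm]
  have hnear : ‖a * y' * a - d‖ ≤ ρ / 2 := by
    have e1 : a * y' * a - d = -((1 / 2 : ℝ) • ((d - a * (y * a)) + star (d - a * (y * a)))) := by
      rw [star_sub, star_mul, star_mul, hasa.star_eq, hdsa, hy'def]
      simp only [mul_smul_comm, smul_mul_assoc, mul_add, add_mul, smul_add, smul_sub, mul_assoc]
      have : d = (1 / 2 : ℝ) • d + (1 / 2 : ℝ) • d := by
        rw [← add_smul]; norm_num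
      conv_lhs => rw [this]
      abel
    rw [e1, norm_neg, norm_smul]
    have h2 : ‖(d - a * (y * a)) + star (d - a * (y * a))‖ ≤ ρ / 2 + ρ / 2 :=
      (norm_add_le _ _).trans (add_le_add hy'.le (by rw [norm_star]; exact hy'.le))
    rw [Real.norm_of_nonneg (by norm_num)]
    linarith
  set N : ℝ := (‖y'‖ + 1) * (2 * ‖a‖ + 1) with hN
  have hNpos : 0 < N := by positivity
  set τ : ℝ := min (min 1 (δ / 2)) (ρ / (2 * N)) with hτ
  have hτ0 : 0 < τ := by
    refine lt_min (lt_min one_pos (by positivity)) (by positivity)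
  have hτ1 : τ ≤ 1 := (min_le_left _ _).trans (min_le_left _ _)
  have hτδ : τ ≤ δ / 2 := (min_le_left _ _).trans (min_le_right _ _)
  have hτρ : τ * N ≤ ρ / 2 := by
    have : τ ≤ ρ / (2 * N) := min_le_right _ _
    calc τ * N ≤ ρ / (2 * N) * N := mul_le_mul_of_nonneg_right this hNpos.le
      _ = ρ / 2 := by field_simp
  -- the functions
  have ck : Continuous (fun s : ℝ => max (s - τ) 0) := by fun_prop
  have ck0 : (fun s : ℝ => max (s - τ) 0) 0 = 0 := by
    show max (0 - τ) 0 = 0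
    exact max_eq_right (by linarith)
  have cm : Continuous (fun s : ℝ => max (s - τ) 0 / max s τ) := by
    refine ck.div (by fun_prop) fun s => ?_
    exact (lt_of_lt_of_le hτ0 (le_max_right _ _)).ne'
  have cm0 : (fun s : ℝ => max (s - τ) 0 / max s τ) 0 = 0 := by
    show max (0 - τ) 0 / max 0 τ = 0
    rw [max_eq_right (by linarith), zero_div]
  have cc : Continuous (fun s : ℝ => rf τ s / max s (τ / 2)) := by
    refine (rf_cont τ).div (by fun_prop) fun s => ?_
    exact (lt_of_lt_of_le (by positivity) (le_max_right _ _)).ne'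
  have cc0 : (fun s : ℝ => rf τ s / max s (τ / 2)) 0 = 0 := by
    show rf τ 0 / _ = 0
    rw [rf_zero, zero_div]
  have cr : Continuous (fun s : ℝ => Real.sqrt (rf δ s)) := (rf_cont δ).sqrt
  have cr0 : (fun s : ℝ => Real.sqrt (rf δ s)) 0 = 0 := by
    show Real.sqrt (rf δ 0) = 0
    rw [rf_zero, Real.sqrt_zero]
  set k : D := cfcₙ (fun s : ℝ => max (s - τ) 0) a with hk
  set m : D := cfcₙ (fun s : ℝ => max (s - τ) 0 / max s τ) a with hm
  set e : D := cfcₙ (rf τ) a with he
  set c : D := cfcₙ (fun s : ℝ => rf τ s / max s (τ / 2)) a with hc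
  set r : D := cfcₙ (fun s : ℝ => Real.sqrt (rf δ s)) a with hr
  have ham : a * m = k := by
    rw [hm, hk, mul_id ha cm cm0]
    congr 1
    funext s
    rcases le_total τ s with h | h
    · rw [max_eq_left h, mul_div_cancel₀ _ (lt_of_lt_of_le hτ0 h).ne']
    · rw [max_eq_right (by linarith : s - τ ≤ 0), zero_div, mul_zero]
  have hma : m * a = k := by
    rw [hm, hk, id_mul ha cm cm0]
    congr 1
    funext s
    rcases le_total τ s with h | h
    · rw [max_eq_left h, mul_div_cancel₀ _ (lt_of_lt_of_le hτ0 h).ne']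
    · rw [max_eq_right (by linarith : s - τ ≤ 0), zero_div, mul_zero]
  have hcf : ∀ s : ℝ, s * (rf τ s / max s (τ / 2)) = rf τ s := by
    intro s
    rcases le_total (τ / 2) s with h | h
    · rw [max_eq_left h, mul_div_cancel₀ _ (lt_of_lt_of_le (by positivity) h).ne']
    · rw [rf_eq_zero hτ0 h, zero_div, mul_zero]
  have hac : e = a * c := by
    rw [he, hc, mul_id ha cc cc0]
    congr 1
    funext s
    exact (hcf s).symm
  have hca : e = c * a := by
    rw [he, hc, id_mul ha cc cc0]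
    congr 1
    funext s
    exact (hcf s).symm
  have hgk : ∀ s : ℝ, rf τ s * max (s - τ) 0 = max (s - τ) 0 := by
    intro s
    rcases le_total τ s with h | h
    · rw [rf_eq_one hτ0 h, one_mul]
    · rw [max_eq_right (by linarith : s - τ ≤ 0), mul_zero]
  have hek : e * k = k := by
    rw [he, hk, mulf (rf_cont τ) rf_zero ck ck0]
    congr 1
    funext s
    exact hgk s
  have hke : k * e = k := by
    rw [he, hk, mulf ck ck0 (rf_cont τ) rf_zero]
    congr 1
    funext s
    rw [mul_comm]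
    exact hgk s
  have hgr : ∀ s : ℝ, rf τ s * Real.sqrt (rf δ s) = Real.sqrt (rf δ s) := by
    intro s
    rcases le_total s (δ / 2) with h | h
    · rw [rf_eq_zero hδ h, Real.sqrt_zero, mul_zero]
    · rw [rf_eq_one hτ0 (hτδ.trans h), one_mul]
  have hksa : IsSelfAdjoint k := cfcₙ_predicate _ _
  refine ⟨k * y' * k, e, c, ?_, ?_, ?_, ?_, ?_, ?_, hac, hca, cfcₙ_predicate _ _, r, ?_, ?_, ?_,
    ?_, ?_⟩
  · refine Submodule.mem_inf.2 ⟨?_, ?_⟩
    · refine subset_closure ⟨m * y' * m, ?_⟩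
      show a * ((m * y' * m) * a) = k * y' * k
      rw [← ham]
      conv_rhs => rw [ham, ← hma]
      simp only [mul_assoc]
      rw [← mul_assoc a m, ham, ← hma]
      simp only [mul_assoc]
    · show star (k * y' * k) = k * y' * k
      rw [star_mul, star_mul, hksa.star_eq, hy's, mul_assoc]
  · have hka : ‖k - a‖ ≤ τ := by
      have h1 : cfcₙ (fun s : ℝ => s) a = a := cfcₙ_id' ℝ a hasa
      have h2 : k - a = cfcₙ (fun s : ℝ => max (s - τ) 0 - s) a := by
        rw [cfcₙ_sub (fun s : ℝ => max (s - τ) 0) (fun s : ℝ => s) a ck.continuousOn ck0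
          continuous_id'.continuousOn rfl, h1]
      rw [h2]
      refine norm_cfcₙ_le fun s hs => ?_
      have hs0 : 0 ≤ s := quasispectrum_nonneg_of_nonneg a ha s hs
      rw [Real.norm_eq_abs, abs_le]
      rcases le_total τ s with h | h
      · rw [max_eq_left (by linarith)]
        constructor <;> linarith
      · rw [max_eq_right (by linarith)]
        constructor <;> linarith
    have hkn : ‖k‖ ≤ ‖a‖ + 1 := by
      have : k = a + (k - a) := by abel
      calc ‖k‖ = ‖a + (k - a)‖ := by rw [← this]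
        _ ≤ ‖a‖ + ‖k - a‖ := norm_add_le _ _
        _ ≤ ‖a‖ + 1 := by linarith
    have e1 : k * y' * k - d = ((k - a) * y' * k + a * y' * (k - a)) + (a * y' * a - d) := by
      simp only [sub_mul, mul_sub]; abel
    rw [e1]
    refine (norm_add_le _ _).trans ?_
    have h1 : ‖(k - a) * y' * k‖ ≤ τ * ‖y'‖ * (‖a‖ + 1) :=
      (norm_mul_le _ _).trans (mul_le_mul ((norm_mul_le _ _).trans
        (mul_le_mul_of_nonneg_right hka (norm_nonneg _))) hkn (norm_nonneg _) (by positivity))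
    have h2 : ‖a * y' * (k - a)‖ ≤ ‖a‖ * ‖y'‖ * τ :=
      (norm_mul_le _ _).trans (mul_le_mul (norm_mul_le _ _) hka (norm_nonneg _) (by positivity))
    have h3 := norm_add_le ((k - a) * y' * k) (a * y' * (k - a))
    have h4 : τ * ‖y'‖ * (‖a‖ + 1) + ‖a‖ * ‖y'‖ * τ ≤ τ * N := by
      rw [hN]
      nlinarith [mul_nonneg hτ0.le (norm_nonneg a), mul_nonneg hτ0.le (norm_nonneg y')]
    linarith
  · exact cfcₙ_nonneg fun s _ => rf_nonneg _ _
  · refine norm_cfcₙ_le fun s _ => ?_
    rw [Real.norm_of_nonneg (rf_nonneg _ _)]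
    exact rf_le_one _ _
  · rw [← mul_assoc, ← mul_assoc, hek]
  · rw [mul_assoc, hke]
  · exact cfcₙ_nonneg fun s _ => Real.sqrt_nonneg _
  · refine norm_cfcₙ_le fun s _ => ?_
    rw [Real.norm_of_nonneg (Real.sqrt_nonneg _)]
    exact Real.sqrt_le_one.2 (rf_le_one _ _)
  · rw [hr, mulf cr cr0 cr cr0, ramp]
    congr 1
    funext s
    exact Real.mul_self_sqrt (rf_nonneg _ _)
  · rw [he, hr, mulf (rf_cont τ) rf_zero cr cr0]
    congr 1
    funext s
    exact hgr s
  · rw [he, hr, mulf cr cr0 (rf_cont τ) rf_zero]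
    congr 1
    funext s
    rw [mul_comm]
    exact hgr s

end

end Vale.Agent.P133.R2.H69
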