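import Mathlib.Analysis.CStarAlgebra.ContinuousFunctionalCalculus.Order
import Mathlib.Analysis.SpecialFunctions.ContinuousFunctionalCalculus.Rpow.Basic

/-!
P133 (helper69): compression of a positive element onto a smaller one.
-/

open scoped ComplexOrder CStarAlgebra

namespace Vale.Agent.P133.R2.H69

universe u

/-- unital form: in a C*-algebra with unit -/
theorem compress_unital {U : Type u} [CStarAlgebra U] [PartialOrder U] [StarOrderedRing U]
    {x q : U} (hx : 0 ≤ x) (hxq : x ≤ q) {s : ℝ} (hs : 0 < s) :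
    ∃ r : U, ‖r * CFC.sqrt x‖ ≤ 1 ∧
      ‖star (r * CFC.sqrt x) * q * (r * CFC.sqrt x) - x‖ ≤ s := by
  have hq : 0 ≤ q := hx.trans hxq
  have hs1 : (0 : U) ≤ algebraMap ℝ U s := algebraMap_nonneg U hs.le
  set b : U := q + algebraMap ℝ U s with hb
  have hb0 : 0 ≤ b := add_nonneg hq hs1
  have hbs : IsStrictlyPositive b := by
    have h1 : IsStrictlyPositive (algebraMap ℝ U s) := by
      refine IsStrictlyPositive.iff_of_unital.2 ⟨hs1, ?_⟩
      exact (IsUnit.mk0 s hs.ne').map (algebraMap ℝ U)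
    exact h1.nonneg_add hq
  have hxb : x ≤ b := hxq.trans (by rw [hb]; exact le_add_of_nonneg_right hs1)
  have h1 := (_root_.le_iff_norm_sqrt_mul_rpow x b hx hbs).1 hxb
  have hsx : star (CFC.sqrt x) = CFC.sqrt x :=
    (IsSelfAdjoint.of_nonneg (CFC.sqrt_nonneg x)).star_eq
  have hr0 : (0 : U) ≤ b ^ (-(1 / 2) : ℝ) := CFC.rpow_nonneg
  have hrs : star (b ^ (-(1 / 2) : ℝ)) = b ^ (-(1 / 2) : ℝ) :=
    (IsSelfAdjoint.of_nonneg hr0).star_eq
  set r : U := b ^ (-(1 / 2) : ℝ) with hr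
  have hv : star (r * CFC.sqrt x) = CFC.sqrt x * r := by rw [star_mul, hsx, hrs]
  have hn : ‖r * CFC.sqrt x‖ ≤ 1 := by
    rw [← norm_star, hv]; exact h1
  refine ⟨r, hn, ?_⟩
  have hrbr : r * b * r = 1 := by
    rw [hr]
    exact CFC.conjugate_rpow_neg_one_half b
  have hqb : q = b - algebraMap ℝ U s := by rw [hb]; abel
  have key : star (r * CFC.sqrt x) * q * (r * CFC.sqrt x) - x =
      -(s • (star (r * CFC.sqrt x) * (r * CFC.sqrt x))) := by
    have e1 : star (r * CFC.sqrt x) * b * (r * CFC.sqrt x) = x := by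
      rw [hv]
      calc CFC.sqrt x * r * b * (r * CFC.sqrt x) = CFC.sqrt x * (r * b * r) * CFC.sqrt x := by
            simp only [mul_assoc]
        _ = x := by rw [hrbr, mul_one, CFC.sqrt_mul_sqrt_self x hx]
    have e2 : star (r * CFC.sqrt x) * algebraMap ℝ U s * (r * CFC.sqrt x) =
        s • (star (r * CFC.sqrt x) * (r * CFC.sqrt x)) := by
      rw [Algebra.algebraMap_eq_smul_one, mul_smul_comm, mul_one, smul_mul_assoc]
    rw [hqb, mul_sub, sub_mul, e1, e2]
    abel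
  rw [key, norm_neg, norm_smul, Real.norm_of_nonneg hs.le, CStarRing.norm_star_mul_self]
  have h3 : ‖r * CFC.sqrt x‖ * ‖r * CFC.sqrt x‖ ≤ 1 := by
    nlinarith [norm_nonneg (r * CFC.sqrt x)]
  nlinarith

/-- Piece D3: `0 ≤ x ≤ q` in a C*-algebra: `x` is, up to `s`, a compression of `q` by a
contraction. -/
theorem compress {D : Type u} [NonUnitalCStarAlgebra D] [PartialOrder D] [StarOrderedRing D]
    {x q : D} (hx : 0 ≤ x) (hxq : x ≤ q) {s : ℝ} (hs : 0 < s) :
    ∃ v : D, ‖v‖ ≤ 1 ∧ ‖star v * q * v - x‖ ≤ s := by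
  have hq : 0 ≤ q := hx.trans hxq
  have hx' : (0 : Unitization ℂ D) ≤ (x : Unitization ℂ D) := Unitization.inr_nonneg_iff.2 hx
  have hxq' : (x : Unitization ℂ D) ≤ (q : Unitization ℂ D) :=
    (Unitization.inr_le_iff x q (IsSelfAdjoint.of_nonneg hx) (IsSelfAdjoint.of_nonneg hq)).2 hxq
  obtain ⟨r, h1, h2⟩ := compress_unital hx' hxq' hs
  have h3 : CFC.sqrt (x : Unitization ℂ D) = ((CFC.sqrt x : D) : Unitization ℂ D) := by
    rw [CFC.sqrt_eq_iff _ _ hx' (Unitization.inr_nonneg_iff.2 (CFC.sqrt_nonneg x)),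
      ← Unitization.inr_mul, CFC.sqrt_mul_sqrt_self x hx]
  obtain ⟨v, hv⟩ : ∃ v : D, (v : Unitization ℂ D) = r * CFC.sqrt (x : Unitization ℂ D) := by
    refine ⟨r.fst • CFC.sqrt x + r.snd * CFC.sqrt x, ?_⟩
    rw [h3]
    ext
    · simp
    · simp
  rw [← hv] at h1 h2
  refine ⟨v, ?_, ?_⟩
  · rwa [Unitization.norm_inr] at h1
  · rwa [← Unitization.inr_star, ← Unitization.inr_mul, ← Unitization.inr_mul,
      ← Unitization.inr_sub, Unitization.norm_inr] at h2

/-- the same with a perturbed middle element -/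
theorem compress_near {D : Type u} [NonUnitalCStarAlgebra D] [PartialOrder D] [StarOrderedRing D]
    {x q : D} (hx : 0 ≤ x) (hxq : x ≤ q) {s : ℝ} (hs : 0 < s) :
    ∃ v : D, ‖v‖ ≤ 1 ∧ ∀ (q' : D) (t : ℝ), ‖q' - q‖ ≤ t → ‖star v * q' * v - x‖ ≤ s + t := by
  obtain ⟨v, h1, h2⟩ := compress hx hxq hs
  refine ⟨v, h1, fun q' t ht => ?_⟩
  have e : star v * q' * v - x = (star v * q * v - x) + star v * (q' - q) * v := by
    rw [mul_sub, sub_mul]; abel
  rw [e]
  refine (norm_add_le _ _).trans (add_le_add h2 ?_)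
  calc ‖star v * (q' - q) * v‖ ≤ ‖star v‖ * ‖q' - q‖ * ‖v‖ :=
        (norm_mul_le _ _).trans (mul_le_mul_of_nonneg_right (norm_mul_le _ _) (norm_nonneg _))
    _ ≤ 1 * t * 1 := by
        rw [norm_star]
        have h0 : 0 ≤ t := (norm_nonneg _).trans ht
        exact mul_le_mul (mul_le_mul h1 ht (norm_nonneg _) zero_le_one) h1 (norm_nonneg _)
          (by positivity)
    _ = t := by ring

/-- an element of the closure of `a D` times `w` is a limit of elements `a * z` -/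
theorem exists_near_mul {D : Type u} [NonUnitalCStarAlgebra D] {a y : D}
    (hy : y ∈ closure (Set.range fun w : D => a * w)) (w : D) {ε : ℝ} (hε : 0 < ε) :
    ∃ z : D, ‖y * w - a * z‖ < ε := by
  have hpos : 0 < ‖w‖ + 1 := by positivity
  obtain ⟨_, ⟨z, rfl⟩, hz⟩ := Metric.mem_closure_iff.1 hy (ε / (‖w‖ + 1)) (by positivity)
  refine ⟨z * w, ?_⟩
  have e : y * w - a * (z * w) = (y - a * z) * w := by rw [sub_mul, mul_assoc]
  rw [e]
  refine lt_of_le_of_lt (norm_mul_le _ _) ?_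
  have h1 : ‖y - a * z‖ < ε / (‖w‖ + 1) := by rwa [dist_eq_norm] at hz
  calc ‖y - a * z‖ * ‖w‖ ≤ ‖y - a * z‖ * (‖w‖ + 1) :=
        mul_le_mul_of_nonneg_left (by linarith) (norm_nonneg _)
    _ < ε / (‖w‖ + 1) * (‖w‖ + 1) := mul_lt_mul_of_pos_right h1 hpos
    _ = ε := div_mul_cancel₀ _ hpos.ne'

end Vale.Agent.P133.R2.H69
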